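import Vale.Agent.P066.Main

namespace Vale.Agent.Results.P066.BridgedCliques

open Vale.Agent.P066

theorem result (a s p t b : ℕ) (hs : s ≤ a) (ht : t ≤ b) (hp : 1 ≤ p) :
    IsHess (a + p + b) (bridge a s p t b) ∧ EPositive (a + p + b) (bridge a s p t b) :=
  ⟨bridge_isHess a s p t b hs ht hp, bridge_EPositive a s p t b hs ht hp⟩

end Vale.Agent.Results.P066.BridgedCliques
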