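import Vale.Agent.Results.P066.BridgedCliques

namespace Vale.Agent.Results.P066.C_ExplicitExpansion

open Vale.Agent.P066 MvPolynomial

/-- For the graph made of two cliques joined by a path with arbitrary initial and final attachments,
the chromatic quasisymmetric function is a combination of the `e_mu` with coefficients in `ℕ[q]`,
the same coefficients in any number of variables. -/
theorem result (a s p t b : ℕ) (hs : s ≤ a) (ht : t ≤ b) (hp : 1 ≤ p) :
    ∃ c : Nat.Partition (a + p + b) → Polynomial ℕ, ∀ N : ℕ,
      chi (a + p + b) (bridge a s p t b) N =
        ∑ mu : Nat.Partition (a + p + b), C ((c mu).map (Nat.castRingHom ℤ)) * ePart mu N :=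
  (Vale.Agent.Results.P066.BridgedCliques.result a s p t b hs ht hp).2

end Vale.Agent.Results.P066.C_ExplicitExpansion
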